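import Mathlib

/-!
# Coefficient obstructions for zero divisors in group algebras of torsion-free groups
-/

namespace Vale.Agent.Results.P201.ThreeTerm

open MonoidAlgebra

universe u v

/-- Key combinatorial lemma: if a coefficient dominates the sum of the other ones, the set where
`b` has maximal absolute value is stable under the transition permutations. -/
lemma core_abs {k : Type*} [Field k] (v : AbsoluteValue k ℝ) {X ι : Type*} [DecidableEq ι]
    (S : Finset ι) (a : ι → k) (σ : ι → Equiv.Perm X) (b : X → k)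
    (hb : (Function.support b).Finite) (hb0 : ∃ x, b x ≠ 0)
    (hsum : ∀ x, ∑ i ∈ S, a i * b (σ i x) = 0) (i0 : ι) (hi0 : i0 ∈ S)
    (hdom : ∑ i ∈ S.erase i0, v (a i) ≤ v (a i0)) :
    ∃ B : Set X, B.Finite ∧ B.Nonempty ∧
      ∀ j ∈ S, a j ≠ 0 → ∀ y ∈ B, σ j ((σ i0).symm y) ∈ B := by
  classical
  -- maximum of `v ∘ b`
  obtain ⟨x0, hx0⟩ := hb0
  have hne : hb.toFinset.Nonempty := ⟨x0, by simpa using hx0⟩
  obtain ⟨m, hm, hmax⟩ := Finset.exists_max_image hb.toFinset (fun x => v (b x)) hne
  have hm0 : b m ≠ 0 := by simpa using hm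
  have hmpos : 0 < v (b m) := v.pos hm0
  have hle : ∀ x, v (b x) ≤ v (b m) := by
    intro x
    by_cases hx : b x = 0
    · rw [hx, map_zero]; exact hmpos.le
    · exact hmax x (by simpa using hx)
  refine ⟨{x | v (b x) = v (b m)}, ?_, ⟨m, rfl⟩, ?_⟩
  · refine hb.subset ?_
    intro x hx
    simp only [Set.mem_ofPred_eq] at hx
    rw [Function.mem_support]
    rintro h0
    rw [h0, map_zero] at hx
    exact hmpos.ne hx
  · intro j hj haj y hy
    simp only [Set.mem_ofPred_eq] at hy ⊢
    by_cases hji : j = i0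
    · subst hji; simpa using hy
    have hs := hsum ((σ i0).symm y)
    rw [← Finset.add_sum_erase S _ hi0] at hs
    simp only [Equiv.apply_symm_apply] at hs
    have h1 : v (a i0 * b y) ≤ ∑ i ∈ S.erase i0, v (a i) * v (b (σ i ((σ i0).symm y))) := by
      have : a i0 * b y = - ∑ i ∈ S.erase i0, a i * b (σ i ((σ i0).symm y)) := by
        linear_combination hs
      rw [this, v.map_neg]
      refine (v.sum_le _ _).trans (le_of_eq ?_)
      exact Finset.sum_congr rfl (fun i _ => by rw [map_mul])
    rw [map_mul, hy] at h1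
    -- everything is an equality
    by_contra hlt
    have hlt' : v (b (σ j ((σ i0).symm y))) < v (b m) := lt_of_le_of_ne (hle _) hlt
    have h2 : ∑ i ∈ S.erase i0, v (a i) * v (b (σ i ((σ i0).symm y)))
        < ∑ i ∈ S.erase i0, v (a i) * v (b m) := by
      refine Finset.sum_lt_sum (fun i _ => ?_) ⟨j, Finset.mem_erase.2 ⟨hji, hj⟩, ?_⟩
      · exact mul_le_mul_of_nonneg_left (hle _) (v.nonneg _)
      · exact mul_lt_mul_of_pos_left hlt' (v.pos haj)
    rw [← Finset.sum_mul] at h2
    have h3 := mul_le_mul_of_nonneg_right hdom hmpos.le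
    linarith

/-- In a torsion-free group a finite nonempty set is stable under left translation by `t` only for
`t = 1`. -/
lemma left_stable {G : Type*} [Group G] (hG : ∀ g : G, g ≠ 1 → ¬ IsOfFinOrder g) (t : G)
    (B : Set G) (hB : B.Finite) (hne : B.Nonempty) (h : ∀ y ∈ B, t * y ∈ B) : t = 1 := by
  by_contra ht
  obtain ⟨y, hy⟩ := hne
  have hmem : ∀ n : ℕ, t ^ n * y ∈ B := by
    intro n
    induction n with
    | zero => simpa using hy
    | succ n ih => rw [pow_succ', mul_assoc]; exact h _ ih
  have hinj : Function.Injective (fun n : ℕ => t ^ n) :=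
    injective_pow_iff_not_isOfFinOrder.2 (hG t ht)
  have hinj' : Function.Injective (fun n : ℕ => t ^ n * y) := fun a b hab =>
    hinj (mul_right_cancel hab)
  exact (Set.infinite_of_injective_forall_mem hinj' hmem) hB

/-- The same for right translations. -/
lemma right_stable {G : Type*} [Group G] (hG : ∀ g : G, g ≠ 1 → ¬ IsOfFinOrder g) (t : G)
    (B : Set G) (hB : B.Finite) (hne : B.Nonempty) (h : ∀ y ∈ B, y * t ∈ B) : t = 1 := by
  by_contra ht
  obtain ⟨y, hy⟩ := hne
  have hmem : ∀ n : ℕ, y * t ^ n ∈ B := by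
    intro n
    induction n with
    | zero => simpa using hy
    | succ n ih => rw [pow_succ, ← mul_assoc]; exact h _ ih
  have hinj : Function.Injective (fun n : ℕ => t ^ n) :=
    injective_pow_iff_not_isOfFinOrder.2 (hG t ht)
  have hinj' : Function.Injective (fun n : ℕ => y * t ^ n) := fun a b hab =>
    hinj (mul_left_cancel hab)
  exact (Set.infinite_of_injective_forall_mem hinj' hmem) hB

variable {K : Type u} [Field K] {G : Type v} [Group G]

/-- Strict polygon inequality for the coefficients of a zero divisor, with respect to every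
absolute value of every subfield containing them (up to a common factor). -/
lemma abs_lt (hG : ∀ g : G, g ≠ 1 → ¬ IsOfFinOrder g) (α β : MonoidAlgebra K G)
    (hβ : β ≠ 0) (h : α * β = 0 ∨ β * α = 0)
    (k : Subfield K) (v : AbsoluteValue k ℝ) (c : K) (hc : c ≠ 0) (a : G → k)
    (ha : ∀ g, (a g : K) = c * α.coeff g) (g : G) (hg : g ∈ α.coeff.support) :
    2 * v (a g) < ∑ x ∈ α.coeff.support, v (a x) := by
  classical
  by_contra hcon
  rw [not_lt, ← Finset.add_sum_erase _ _ hg, two_mul] at hcon
  replace hcon := le_of_add_le_add_left hcon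
  -- a `k`-valued functional
  obtain ⟨x0, hx0⟩ : ∃ x, β.coeff x ≠ 0 := by
    by_contra hh
    push Not at hh
    exact hβ (by ext x; simpa using hh x)
  obtain ⟨f, hf⟩ : ∃ f : K →ₗ[k] k, f (β.coeff x0) ≠ 0 := by
    by_contra hh
    push Not at hh
    exact hx0 ((Module.forall_dual_apply_eq_zero_iff k (β.coeff x0)).1 hh)
  set b : G → k := fun x => f (β.coeff x) with hbdef
  have hbfin : (Function.support b).Finite := by
    refine β.coeff.hasFiniteSupport.subset ?_
    intro x hx
    rw [Function.mem_support] at hx ⊢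
    intro h0
    exact hx (by simp [hbdef, h0])
  have hb0 : ∃ x, b x ≠ 0 := ⟨x0, hf⟩
  have hane : ∀ x ∈ α.coeff.support, a x ≠ 0 := by
    intro x hx h0
    have := ha x
    rw [h0] at this
    have h' : c * α.coeff x = 0 := by simpa using this.symm
    rcases mul_eq_zero.1 h' with h1 | h1
    · exact hc h1
    · exact (Finsupp.mem_support_iff.1 hx) h1
  -- at least one other element of the support
  have main : ∀ x ∈ α.coeff.support, x = g := by
    intro x hx
    rcases h with h | h
    · obtain ⟨B, hBf, hBne, hB⟩ := core_abs v α.coeff.support a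
        (fun x => Equiv.mulLeft x⁻¹) b hbfin hb0 (by
          intro y
          have hy : (α * β).coeff y = 0 := by rw [h]; rfl
          rw [coeff_mul_apply_left, Finsupp.sum] at hy
          have : ∑ i ∈ α.coeff.support, a i * b (i⁻¹ * y)
              = f (c * ∑ i ∈ α.coeff.support, α.coeff i * β.coeff (i⁻¹ * y)) := by
            rw [Finset.mul_sum, map_sum]
            refine Finset.sum_congr rfl (fun i _ => ?_)
            have : c * (α.coeff i * β.coeff (i⁻¹ * y)) = a i • β.coeff (i⁻¹ * y) := by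
              rw [Subfield.smul_def, ha, smul_eq_mul]; ring
            rw [this, map_smul, smul_eq_mul]
          simp only [Equiv.coe_mulLeft]
          rw [this, hy, mul_zero, map_zero]) g hg hcon
      have := left_stable hG (x⁻¹ * g) B hBf hBne (fun y hy => by
        have := hB x hx (hane x hx) y hy
        simpa [mul_assoc] using this)
      exact (inv_mul_eq_one.1 this)
    · obtain ⟨B, hBf, hBne, hB⟩ := core_abs v α.coeff.support a
        (fun x => Equiv.mulRight x⁻¹) b hbfin hb0 (by
          intro y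
          have hy : (β * α).coeff y = 0 := by rw [h]; rfl
          rw [coeff_mul_apply_right, Finsupp.sum] at hy
          have : ∑ i ∈ α.coeff.support, a i * b (y * i⁻¹)
              = f (c * ∑ i ∈ α.coeff.support, β.coeff (y * i⁻¹) * α.coeff i) := by
            rw [Finset.mul_sum, map_sum]
            refine Finset.sum_congr rfl (fun i _ => ?_)
            have : c * (β.coeff (y * i⁻¹) * α.coeff i) = a i • β.coeff (y * i⁻¹) := by
              rw [Subfield.smul_def, ha, smul_eq_mul]; ring
            rw [this, map_smul, smul_eq_mul]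
          simp only [Equiv.coe_mulRight]
          rw [this, hy, mul_zero, map_zero]) g hg hcon
      have := right_stable hG (g * x⁻¹) B hBf hBne (fun y hy => by
        have := hB x hx (hane x hx) y hy
        simpa [mul_assoc] using this)
      exact (mul_inv_eq_one.1 this).symm
  -- so the support is `{g}`, and `α` is a unit
  have hsupp : α.coeff.support = {g} := by
    ext x
    rw [Finset.mem_singleton]
    exact ⟨main x, fun hx => hx ▸ hg⟩
  have hcoef : α.coeff g ≠ 0 := Finsupp.mem_support_iff.1 hg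
  rcases h with h | h
  · have hy : (α * β).coeff (g * x0) = 0 := by rw [h]; rfl
    rw [coeff_mul_apply_left, Finsupp.sum, hsupp, Finset.sum_singleton] at hy
    simp only [inv_mul_cancel_left] at hy
    exact (mul_ne_zero hcoef hx0) hy
  · have hy : (β * α).coeff (x0 * g) = 0 := by rw [h]; rfl
    rw [coeff_mul_apply_right, Finsupp.sum, hsupp, Finset.sum_singleton] at hy
    simp only [mul_inv_cancel_right] at hy
    exact (mul_ne_zero hx0 hcoef) hy

/-- Zero divisors of group algebras of torsion-free groups have at least three terms. -/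
lemma three_le_card (hG : ∀ g : G, g ≠ 1 → ¬ IsOfFinOrder g) (α β : MonoidAlgebra K G)
    (hα : α ≠ 0) (hβ : β ≠ 0) (h : α * β = 0 ∨ β * α = 0) : 3 ≤ α.coeff.support.card := by
  classical
  obtain ⟨g, hg⟩ : ∃ g, α.coeff g ≠ 0 := by
    by_contra hh
    push Not at hh
    exact hα (by ext x; simpa using hh x)
  have h1 := abs_lt hG α β hβ h (⊤ : Subfield K) AbsoluteValue.trivial 1 one_ne_zero
    (fun x => ⟨α.coeff x, Subfield.mem_top _⟩) (fun x => by simp) g
    (Finsupp.mem_support_iff.2 hg)
  have h2 : ∀ x ∈ α.coeff.support,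
      (AbsoluteValue.trivial : AbsoluteValue (⊤ : Subfield K) ℝ)
        (⟨α.coeff x, Subfield.mem_top _⟩ : (⊤ : Subfield K)) = 1 := by
    intro x hx
    apply AbsoluteValue.trivial_apply
    intro h0
    exact (Finsupp.mem_support_iff.1 hx) (congrArg Subtype.val h0)
  rw [Finset.sum_congr rfl h2, h2 g (Finsupp.mem_support_iff.2 hg)] at h1
  simp only [Finset.sum_const, nsmul_eq_mul, mul_one] at h1
  have : (2 : ℕ) < α.coeff.support.card := by exact_mod_cast h1
  omega

/-- Specialisation of a nonzero element of `K[G]` at a valuation subring: after dividing by a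
coefficient of maximal valuation all coefficients lie in `V`, and the reduction is supported on the
terms of maximal valuation. -/
lemma exists_lift (V : ValuationSubring K) (α : MonoidAlgebra K G) (hα : α ≠ 0) :
    ∃ (c : K) (αV : MonoidAlgebra V G), c ≠ 0 ∧ mapRingHom G V.subtype αV = c • α ∧
      ((mapRingHom G (IsLocalRing.residue V) αV).coeff.support : Set G) =
        {g | α.coeff g ≠ 0 ∧ ∀ h, α.coeff h / α.coeff g ∈ V} := by
  classical
  have hne : α.coeff.support.Nonempty := by
    rw [Finsupp.support_nonempty_iff]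
    intro h0
    exact hα (by ext x; simp [h0])
  obtain ⟨g0, hg0, hmax⟩ := Finset.exists_max_image α.coeff.support
    (fun x => V.valuation (α.coeff x)) hne
  have hg0' : α.coeff g0 ≠ 0 := Finsupp.mem_support_iff.1 hg0
  have hvpos : V.valuation (α.coeff g0) ≠ 0 := (V.valuation.ne_zero_iff).2 hg0'
  have hle : ∀ x, V.valuation (α.coeff x) ≤ V.valuation (α.coeff g0) := by
    intro x
    by_cases hx : α.coeff x = 0
    · rw [hx, map_zero]; exact zero_le
    · exact hmax x (Finsupp.mem_support_iff.2 hx)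
  have hmem : ∀ x, (α.coeff g0)⁻¹ * α.coeff x ∈ V := by
    intro x
    rw [← V.valuation_le_one_iff, map_mul, map_inv₀]
    calc (V.valuation (α.coeff g0))⁻¹ * V.valuation (α.coeff x)
        ≤ (V.valuation (α.coeff g0))⁻¹ * V.valuation (α.coeff g0) := by
          gcongr; exact hle x
      _ = 1 := inv_mul_cancel₀ hvpos
  let f : K → V := fun x => if h : (α.coeff g0)⁻¹ * x ∈ V then ⟨(α.coeff g0)⁻¹ * x, h⟩ else 0
  have hf0 : f 0 = 0 := by
    simp only [f, mul_zero, V.zero_mem, dite_true]
    rfl
  let αV : MonoidAlgebra V G := MonoidAlgebra.ofCoeff (α.coeff.mapRange f hf0)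
  have hαV : ∀ x, ((αV.coeff x : V) : K) = (α.coeff g0)⁻¹ * α.coeff x := by
    intro x
    simp only [αV, Finsupp.mapRange_apply, f, hmem x, dite_true]
  refine ⟨(α.coeff g0)⁻¹, αV, inv_ne_zero hg0', ?_, ?_⟩
  · ext x
    rw [coeff_mapRingHom]
    simp only [ValuationSubring.subtype_apply, hαV, coeff_smul, Finsupp.smul_apply, smul_eq_mul]
  · ext g
    simp only [Finset.mem_coe, Finsupp.mem_support_iff, coeff_mapRingHom, Set.mem_ofPred_eq]
    rw [Ne, IsLocalRing.residue_eq_zero_iff, ValuationSubring.valuation_lt_one_iff]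
    have hval : V.valuation ((αV.coeff g : V) : K)
        = (V.valuation (α.coeff g0))⁻¹ * V.valuation (α.coeff g) := by
      rw [hαV, map_mul, map_inv₀]
    rw [hval]
    constructor
    · intro hlt
      have hge : V.valuation (α.coeff g0) ≤ V.valuation (α.coeff g) := by
        by_contra hcon
        rw [not_le] at hcon
        apply hlt
        calc (V.valuation (α.coeff g0))⁻¹ * V.valuation (α.coeff g)
            < (V.valuation (α.coeff g0))⁻¹ * V.valuation (α.coeff g0) := by
              exact mul_lt_mul_of_pos_left hcon (zero_lt_iff.2 (inv_ne_zero hvpos))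
          _ = 1 := inv_mul_cancel₀ hvpos
      have hgne : α.coeff g ≠ 0 := by
        intro h0
        rw [h0, map_zero] at hge
        exact hvpos (le_antisymm hge zero_le)
      refine ⟨hgne, fun h => ?_⟩
      rw [← V.valuation_le_one_iff, map_div₀]
      have : V.valuation (α.coeff h) ≤ V.valuation (α.coeff g) := (hle h).trans hge
      exact div_le_one_of_le₀ this zero_le
    · rintro ⟨hgne, hall⟩ hlt
      have h1 := hall g0
      rw [← V.valuation_le_one_iff, map_div₀] at h1
      have hgv : V.valuation (α.coeff g) ≠ 0 := (V.valuation.ne_zero_iff).2 hgne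
      have h2 : V.valuation (α.coeff g0) ≤ V.valuation (α.coeff g) := by
        rwa [div_le_one₀ (zero_lt_iff.2 hgv)] at h1
      have h3 : V.valuation (α.coeff g) = V.valuation (α.coeff g0) := le_antisymm (hle g) h2
      rw [h3, inv_mul_cancel₀ hvpos] at hlt
      exact lt_irrefl _ hlt

lemma specialise (V : ValuationSubring K) (α β : MonoidAlgebra K G) (hα : α ≠ 0) (hβ : β ≠ 0) :
    ∃ α' β' : MonoidAlgebra (IsLocalRing.ResidueField V) G, β' ≠ 0 ∧
      (α * β = 0 → α' * β' = 0) ∧ (β * α = 0 → β' * α' = 0) ∧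
      (α'.coeff.support : Set G) = {g | α.coeff g ≠ 0 ∧ ∀ h, α.coeff h / α.coeff g ∈ V} := by
  classical
  obtain ⟨c, αV, hc, hαV, hsα⟩ := exists_lift V α hα
  obtain ⟨d, βV, hd, hβV, hsβ⟩ := exists_lift V β hβ
  have hinj : Function.Injective (mapRingHom G V.subtype) := by
    intro x y hxy
    ext g
    have := congrArg (fun z => z.coeff g) hxy
    simpa [coeff_mapRingHom] using this
  refine ⟨mapRingHom G (IsLocalRing.residue V) αV, mapRingHom G (IsLocalRing.residue V) βV,
    ?_, ?_, ?_, hsα⟩
  · intro h0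
    -- the support of the reduction of `β` is nonempty
    have hne : β.coeff.support.Nonempty := by
      rw [Finsupp.support_nonempty_iff]
      intro h0
      exact hβ (by ext x; simp [h0])
    obtain ⟨g0, hg0, hmax⟩ := Finset.exists_max_image β.coeff.support
      (fun x => V.valuation (β.coeff x)) hne
    have hg0' : β.coeff g0 ≠ 0 := Finsupp.mem_support_iff.1 hg0
    have hvpos : V.valuation (β.coeff g0) ≠ 0 := (V.valuation.ne_zero_iff).2 hg0'
    have hmem : g0 ∈ {g | β.coeff g ≠ 0 ∧ ∀ h, β.coeff h / β.coeff g ∈ V} := by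
      refine ⟨hg0', fun h => ?_⟩
      rw [← V.valuation_le_one_iff, map_div₀]
      by_cases hx : β.coeff h = 0
      · rw [hx, map_zero, zero_div]; exact zero_le
      · exact div_le_one_of_le₀ (hmax h (Finsupp.mem_support_iff.2 hx)) zero_le
    rw [← hsβ, h0] at hmem
    simp at hmem
  · intro h
    rw [← map_mul]
    have : αV * βV = 0 := by
      apply hinj
      rw [map_mul, hαV, hβV, map_zero, smul_mul_smul_comm, h, smul_zero]
    rw [this, map_zero]
  · intro h
    rw [← map_mul]
    have : βV * αV = 0 := by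
      apply hinj
      rw [map_mul, hαV, hβV, map_zero, smul_mul_smul_comm, h, smul_zero]
    rw [this, map_zero]

lemma mem_leading (V : ValuationSubring K) (α : MonoidAlgebra K G) (hα : α ≠ 0) :
    {g : G | α.coeff g ≠ 0 ∧ ∀ h, α.coeff h / α.coeff g ∈ V}.Nonempty := by
  classical
  have hne : α.coeff.support.Nonempty := by
    rw [Finsupp.support_nonempty_iff]
    intro h0
    exact hα (by ext x; simp [h0])
  obtain ⟨g0, hg0, hmax⟩ := Finset.exists_max_image α.coeff.support
    (fun x => V.valuation (α.coeff x)) hne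
  refine ⟨g0, Finsupp.mem_support_iff.1 hg0, fun h => ?_⟩
  rw [← V.valuation_le_one_iff, map_div₀]
  by_cases hx : α.coeff h = 0
  · rw [hx, map_zero, zero_div]; exact zero_le
  · exact div_le_one_of_le₀ (hmax h (Finsupp.mem_support_iff.2 hx)) zero_le

/-- If zero divisors of `k[G]` have at least `n` terms for all fields `k`, then at least `n` terms
of a zero divisor have maximal valuation, for every valuation. -/
lemma le_ncard (n : ℕ)
    (hn : ∀ (k : Type u) [Field k] (α β : MonoidAlgebra k G), α ≠ 0 → β ≠ 0 →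
      (α * β = 0 ∨ β * α = 0) → n ≤ α.coeff.support.card)
    (α β : MonoidAlgebra K G)
    (hα : α ≠ 0) (hβ : β ≠ 0) (h : α * β = 0 ∨ β * α = 0) (V : ValuationSubring K) :
    n ≤ {g : G | α.coeff g ≠ 0 ∧ ∀ h, α.coeff h / α.coeff g ∈ V}.ncard := by
  classical
  obtain ⟨α', β', hβ', h1, h2, hs⟩ := specialise V α β hα hβ
  have hα' : α' ≠ 0 := by
    intro h0
    obtain ⟨g0, hg0⟩ := mem_leading V α hα
    rw [← hs, h0] at hg0
    simp at hg0
  have h3 := hn _ α' β' hα' hβ' (h.imp h1 h2)
  rw [← hs, Set.ncard_coe_finset]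
  exact h3

lemma integral_of_card_eq (n : ℕ)
    (hn : ∀ (k : Type u) [Field k] (α β : MonoidAlgebra k G), α ≠ 0 → β ≠ 0 →
      (α * β = 0 ∨ β * α = 0) → n ≤ α.coeff.support.card)
    (α β : MonoidAlgebra K G) (hα : α ≠ 0) (hβ : β ≠ 0) (h : α * β = 0 ∨ β * α = 0)
    (hcard : α.coeff.support.card = n) (g : G) (hg : g ∈ α.coeff.support) (x : G) :
    IsIntegral ℤ (α.coeff x / α.coeff g) := by
  classical
  have key : ∀ V : ValuationSubring K, α.coeff x / α.coeff g ∈ V := by
    intro V
    have h3 := le_ncard n hn α β hα hβ h V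
    have hsub : {g : G | α.coeff g ≠ 0 ∧ ∀ h, α.coeff h / α.coeff g ∈ V} ⊆
        (α.coeff.support : Set G) := fun y hy => Finsupp.mem_support_iff.2 hy.1
    have heq : {g : G | α.coeff g ≠ 0 ∧ ∀ h, α.coeff h / α.coeff g ∈ V} =
        (α.coeff.support : Set G) := by
      apply Set.eq_of_subset_of_ncard_le hsub
      rw [Set.ncard_coe_finset, hcard]
      exact h3
    have : g ∈ {g : G | α.coeff g ≠ 0 ∧ ∀ h, α.coeff h / α.coeff g ∈ V} := by
      rw [heq]; exact hg
    exact this.2 x
  have hmem : α.coeff x / α.coeff g ∈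
      (integralClosure (Subring.closure (∅ : Set K)) K).toSubring := by
    rw [← iInf_valuationSubring_superset]
    rw [Subring.mem_iInf]
    intro V
    exact key V.1
  have hint : IsIntegral (Subring.closure (∅ : Set K)) (α.coeff x / α.coeff g) := hmem
  -- descend to `ℤ`
  have : Algebra.IsIntegral ℤ (Subring.closure (∅ : Set K)) := by
    refine ⟨fun y => ?_⟩
    obtain ⟨y, hy⟩ := y
    have hy' := hy
    rw [Subring.closure_empty, Subring.mem_bot] at hy'
    obtain ⟨n, rfl⟩ := hy'
    have : (⟨(n : K), hy⟩ : Subring.closure (∅ : Set K)) =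
        algebraMap ℤ (Subring.closure (∅ : Set K)) n := by
      ext
      simp
    rw [this]
    exact isIntegral_algebraMap
  exact isIntegral_trans _ hint

/-- In positive characteristic nonzero elements integral over `ℤ` are roots of unity. -/
lemma root_of_unity {p : ℕ} (hp : p.Prime) [CharP K p] (x : K) (hx0 : x ≠ 0)
    (hx : IsIntegral ℤ x) : ∃ n : ℕ, 0 < n ∧ x ^ n = 1 := by
  have : Fact p.Prime := ⟨hp⟩
  let _ : Algebra (ZMod p) K := ZMod.algebra K p
  have hx' : IsIntegral (ZMod p) x := IsIntegral.tower_top hx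
  have : Module.Finite (ZMod p) (Algebra.adjoin (ZMod p) {x}) :=
    Module.Finite.iff_fg.2 hx'.fg_adjoin_singleton
  have : Finite (Algebra.adjoin (ZMod p) {x}) := Module.finite_of_finite (ZMod p)
  let y : Algebra.adjoin (ZMod p) {x} := ⟨x, Algebra.self_mem_adjoin_singleton _ x⟩
  obtain ⟨a, b, hab, h⟩ := Finite.exists_ne_map_eq_of_infinite (fun n : ℕ => y ^ n)
  have h' : x ^ a = x ^ b := by
    have := congrArg Subtype.val h
    simpa [y] using this
  rcases lt_or_gt_of_ne hab with hlt | hlt
  · refine ⟨b - a, by omega, ?_⟩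
    have : x ^ a * x ^ (b - a) = x ^ a * 1 := by
      rw [← pow_add, Nat.add_sub_cancel' hlt.le, mul_one, h']
    exact mul_left_cancel₀ (pow_ne_zero _ hx0) this
  · refine ⟨a - b, by omega, ?_⟩
    have : x ^ b * x ^ (a - b) = x ^ b * 1 := by
      rw [← pow_add, Nat.add_sub_cancel' hlt.le, mul_one, h']
    exact mul_left_cancel₀ (pow_ne_zero _ hx0) this

/-- Let `G` be a torsion-free group, `K` a field and `0 ≠ α ∈ K[G]`. -/
theorem result (G : Type v) [Group G] (hG : ∀ g : G, g ≠ 1 → ¬ IsOfFinOrder g)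
    (K : Type u) [Field K] (α : MonoidAlgebra K G) (hα : α ≠ 0) :
    -- (1) `α` is neither a left nor a right zero divisor as soon as one of (a)-(d) holds
    (((∃ V : ValuationSubring K,
          {g : G | α.coeff g ≠ 0 ∧ ∀ h, α.coeff h / α.coeff g ∈ V}.ncard ≤ 2) ∨
      (∃ (k : Subfield K) (v : AbsoluteValue k ℝ) (c : K) (a : G → k), c ≠ 0 ∧
          (∀ g, (a g : K) = c * α.coeff g) ∧
          ∃ g ∈ α.coeff.support, ∑ x ∈ α.coeff.support, v (a x) ≤ 2 * v (a g)) ∨
      (α.coeff.support.card = 3 ∧ ∃ g ∈ α.coeff.support, ∃ x ∈ α.coeff.support,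
          ¬ IsIntegral ℤ (α.coeff x / α.coeff g)) ∨
      (α.coeff.support.card = 3 ∧ (∃ p : ℕ, p.Prime ∧ CharP K p) ∧
          ∃ g ∈ α.coeff.support, ∃ x ∈ α.coeff.support,
            ∀ n : ℕ, 0 < n → (α.coeff x / α.coeff g) ^ n ≠ 1)) →
      ∀ β : MonoidAlgebra K G, (α * β = 0 ∨ β * α = 0) → β = 0) ∧
    -- (2) specialisation of zero divisors at every valuation subring `V` of `K`
    (∀ β : MonoidAlgebra K G, β ≠ 0 → ∀ V : ValuationSubring K,
      ∃ α' β' : MonoidAlgebra (IsLocalRing.ResidueField V) G,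
        α' ≠ 0 ∧ β' ≠ 0 ∧ (α * β = 0 → α' * β' = 0) ∧ (β * α = 0 → β' * α' = 0) ∧
        (α'.coeff.support : Set G) = {g | α.coeff g ≠ 0 ∧ ∀ h, α.coeff h / α.coeff g ∈ V}) ∧
    -- (3) zero divisors with the least possible number of terms have unit coefficient ratios
    ((∃ β : MonoidAlgebra K G, β ≠ 0 ∧ (α * β = 0 ∨ β * α = 0)) →
      (∀ (k : Type u) [Field k] (α₁ β₁ : MonoidAlgebra k G), α₁ ≠ 0 → β₁ ≠ 0 →
        (α₁ * β₁ = 0 ∨ β₁ * α₁ = 0) → α.coeff.support.card ≤ α₁.coeff.support.card) →
      ∀ g ∈ α.coeff.support, ∀ x ∈ α.coeff.support,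
      IsIntegral ℤ (α.coeff x / α.coeff g) ∧
      (∀ p : ℕ, p.Prime → CharP K p → ∃ n : ℕ, 0 < n ∧ (α.coeff x / α.coeff g) ^ n = 1)) := by
  have h3 : ∀ (k : Type u) [Field k] (α₁ β₁ : MonoidAlgebra k G), α₁ ≠ 0 → β₁ ≠ 0 →
        (α₁ * β₁ = 0 ∨ β₁ * α₁ = 0) → 3 ≤ α₁.coeff.support.card :=
    fun k _ α₁ β₁ h1 h2 h12 => three_le_card hG α₁ β₁ h1 h2 h12
  refine ⟨?_, ?_, ?_⟩
  · intro hcase β hβα
    by_contra hβ
    rcases hcase with ⟨V, hV⟩ | ⟨k, v, c, a, hc, ha, g, hg, hle⟩ | ⟨hcard, g, hg, x, hx, hni⟩ |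
      ⟨hcard, ⟨p, hp, hchar⟩, g, hg, x, hx, hnr⟩
    · have := le_ncard 3 h3 α β hα hβ hβα V
      omega
    · have := abs_lt hG α β hβ hβα k v c hc a ha g hg
      linarith
    · exact hni (integral_of_card_eq 3 h3 α β hα hβ hβα hcard g hg x)
    · have hint := integral_of_card_eq 3 h3 α β hα hβ hβα hcard g hg x
      obtain ⟨n, hn, h1⟩ := root_of_unity hp _
        (div_ne_zero (Finsupp.mem_support_iff.1 hx) (Finsupp.mem_support_iff.1 hg)) hint
      exact hnr n hn h1
  · intro β hβ V
    obtain ⟨α', β', hβ', h1, h2, hs⟩ := specialise V α β hα hβ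
    refine ⟨α', β', ?_, hβ', h1, h2, hs⟩
    intro h0
    obtain ⟨g0, hg0⟩ := mem_leading V α hα
    rw [← hs, h0] at hg0
    simp at hg0
  · rintro ⟨β, hβ, h⟩ hmin g hg x hx
    have hint := integral_of_card_eq _ hmin α β hα hβ h rfl g hg x
    refine ⟨hint, fun p hp hchar => root_of_unity hp _ ?_ hint⟩
    exact div_ne_zero (Finsupp.mem_support_iff.1 hx) (Finsupp.mem_support_iff.1 hg)

end Vale.Agent.Results.P201.ThreeTerm
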